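import Vale.Agent.Lib.P254.Final
import Vale.Agent.Lib.P254.Simplex
import Vale.Agent.Lib.P254.Moments
import Vale.Agent.Lib.P254.ProdBody

/-!
P254: the strong isotropic constant conjecture is stable under direct products.
-/

namespace Vale.Agent.Results.P254.Products

open Vale.Agent.Lib.P254

/-- If two convex bodies `K ⊆ ℝ^ι`, `M ⊆ ℝ^κ` have isotropic constant at most that of the simplex of
their dimension, then the direct product `K × M ⊆ ℝ^(ι ⊕ κ)` is a convex body whose isotropic
constant is strictly smaller than that of the simplex of its dimension.  Moreover the isotropic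
constant of the `n`-simplex is `((n!)^2 / ((n+1)^(n+1) (n+2)^n))^(1/(2n))`. -/
theorem result :
    (∀ {ι κ : Type} [Fintype ι] [Fintype κ] [Nonempty ι] [Nonempty κ]
      (K : Set (ι → ℝ)) (M : Set (κ → ℝ)), IsBody K → IsBody M →
      isoConst K ≤ isoConst (S (Fintype.card ι) 1) →
      isoConst M ≤ isoConst (S (Fintype.card κ) 1) →
      IsBody (prodBody K M) ∧
        isoConst (prodBody K M) < isoConst (S (Fintype.card (ι ⊕ κ)) 1)) ∧
    (∀ n : ℕ, 1 ≤ n → IsBody (S n 1) ∧
      isoConst (S n 1) = ((n.factorial : ℝ) ^ 2 / (((n : ℝ) + 1) ^ (n + 1) * ((n : ℝ) + 2) ^ n)) ^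
        (1 / (2 * (n : ℝ)))) := by
  refine ⟨?_, ?_⟩
  · intro ι κ _ _ _ _ K M hK hM h1 h2
    refine ⟨body_prod hK hM, ?_⟩
    rw [Fintype.card_sum]
    exact final_of (fun n _ => simplex_ratio n (vol_S n) (mom1 n) (mom2 n)) (fun m n hm hn => s_mul_lt hm hn) hK hM h1 h2
  · intro n _
    refine ⟨isBody_S n, ?_⟩
    rw [iso_eq, simplex_ratio n (vol_S n) (mom1 n) (mom2 n), Fintype.card_fin]
    rfl

end Vale.Agent.Results.P254.Products
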