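import Vale.Agent.Lib.P254C.Simp

/-!
P254.  The strong isotropic constant conjecture for a convex body `K` in `ℝ^n` is equivalent to the
conjecture for the pyramid over `K` in `ℝ^(n+1)`, with the same equality cases; and the class of the
bodies which satisfy it is closed under direct products.
-/

namespace Vale.Agent.Results.P254.Pyramids

open Vale.Agent.P254C

/-- (1) `K ⊂ ℝ^n` satisfies `L_K ≤ L_{Δ_n}` if and only if the pyramid over `K` in `ℝ^(n+1)`
satisfies `L ≤ L_{Δ_(n+1)}`, and the same with equality instead of inequality.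
(2) If `L_K ≤ L_{Δ_n}` and `L_{K'} ≤ L_{Δ_m}` then `L_{K × K'} < L_{Δ_(n+m)}`.
Here `Δ_n` is the simplex `x ≥ 0, ∑ x_i ≤ 1`. -/
theorem result {ι κ : Type} [Fintype ι] [Fintype κ] [DecidableEq ι] [DecidableEq κ]
    [Nonempty ι] [Nonempty κ] (K : Set (ι → ℝ)) (K' : Set (κ → ℝ)) (hK : IsBody K)
    (hK' : IsBody K') :
    (IsBody (pyramid K) ∧
      (isoConst (pyramid K) ≤ isoConst (stdSimplexBody (Fintype.card ι + 1)) ↔
        isoConst K ≤ isoConst (stdSimplexBody (Fintype.card ι))) ∧
      (isoConst (pyramid K) = isoConst (stdSimplexBody (Fintype.card ι + 1)) ↔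
        isoConst K = isoConst (stdSimplexBody (Fintype.card ι)))) ∧
    (IsBody (prodBody K K') ∧
      (isoConst K ≤ isoConst (stdSimplexBody (Fintype.card ι)) →
        isoConst K' ≤ isoConst (stdSimplexBody (Fintype.card κ)) →
        isoConst (prodBody K K') <
          isoConst (stdSimplexBody (Fintype.card ι + Fintype.card κ)))) := by
  simp only [isoConst_simplex]
  exact ⟨⟨body_pyr hK, isoConst_pyr_le hK, isoConst_pyr_eq hK⟩, body_prod hK hK',
    isoConst_prod_lt hK hK'⟩

end Vale.Agent.Results.P254.Pyramids
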